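import Vale.Agent.P062.AD0

namespace Vale.Agent.P062

noncomputable def Ae0 : Tab := Tab.nil

theorem Ac0 : Tab.check Ae0 At0 = true := by decide +kernel

end Vale.Agent.P062
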