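import Vale.Agent.P062.AD0
import Vale.Agent.P062.AD1
import Vale.Agent.P062.AD2
import Vale.Agent.P062.AD3
import Vale.Agent.P062.AD4
import Vale.Agent.P062.AD5
import Vale.Agent.P062.AD6
import Vale.Agent.P062.AD7
import Vale.Agent.P062.AD10

namespace Vale.Agent.P062

noncomputable def Ae10 : Tab := (Tab.node (Tab.node (Tab.node (Tab.node (Tab.node At0 Tab.nil) Tab.nil) (Tab.node (Tab.node At4 Tab.nil) Tab.nil)) (Tab.node (Tab.node (Tab.node At2 Tab.nil) Tab.nil) (Tab.node (Tab.node At6 Tab.nil) Tab.nil))) (Tab.node (Tab.node (Tab.node (Tab.node At1 Tab.nil) Tab.nil) (Tab.node (Tab.node At5 Tab.nil) Tab.nil)) (Tab.node (Tab.node (Tab.node At3 Tab.nil) Tab.nil) (Tab.node (Tab.node At7 Tab.nil) Tab.nil))))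

theorem Ac10 : Tab.check Ae10 At10 = true := by decide +kernel

end Vale.Agent.P062
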