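import Vale.Agent.P062.AD0
import Vale.Agent.P062.AD1
import Vale.Agent.P062.AD2
import Vale.Agent.P062.AD3
import Vale.Agent.P062.AD4
import Vale.Agent.P062.AD5
import Vale.Agent.P062.AD6
import Vale.Agent.P062.AD7
import Vale.Agent.P062.AD11

namespace Vale.Agent.P062

noncomputable def Ae11 : Tab := (Tab.node (Tab.node (Tab.node (Tab.node (Tab.node At0 Tab.nil) Tab.nil) (Tab.node (Tab.node At4 Tab.nil) Tab.nil)) (Tab.node (Tab.node (Tab.node At2 Tab.nil) Tab.nil) (Tab.node (Tab.node At6 Tab.nil) Tab.nil))) (Tab.node (Tab.node (Tab.node (Tab.node At1 Tab.nil) Tab.nil) (Tab.node (Tab.node At5 Tab.nil) Tab.nil)) (Tab.node (Tab.node (Tab.node At3 Tab.nil) Tab.nil) (Tab.node (Tab.node At7 Tab.nil) Tab.nil))))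

theorem Ac11 : Tab.check Ae11 At11 = true := by decide +kernel

end Vale.Agent.P062
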