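import Vale.Agent.P062.AD0
import Vale.Agent.P062.AD1
import Vale.Agent.P062.AD2
import Vale.Agent.P062.AD3
import Vale.Agent.P062.AD4
import Vale.Agent.P062.AD5
import Vale.Agent.P062.AD6
import Vale.Agent.P062.AD7
import Vale.Agent.P062.AD8
import Vale.Agent.P062.AD9
import Vale.Agent.P062.AD10
import Vale.Agent.P062.AD11
import Vale.Agent.P062.AD12
import Vale.Agent.P062.AD13
import Vale.Agent.P062.AD14
import Vale.Agent.P062.AD18

namespace Vale.Agent.P062

noncomputable def Ae18 : Tab := (Tab.node (Tab.node (Tab.node (Tab.node (Tab.node At0 Tab.nil) (Tab.node At8 Tab.nil)) (Tab.node (Tab.node At4 Tab.nil) (Tab.node At12 Tab.nil))) (Tab.node (Tab.node (Tab.node At2 Tab.nil) (Tab.node At10 Tab.nil)) (Tab.node (Tab.node At6 Tab.nil) (Tab.node At14 Tab.nil)))) (Tab.node (Tab.node (Tab.node (Tab.node At1 Tab.nil) (Tab.node At9 Tab.nil)) (Tab.node (Tab.node At5 Tab.nil) (Tab.node At13 Tab.nil))) (Tab.node (Tab.node (Tab.node At3 Tab.nil) (Tab.node At11 Tab.nil)) (Tab.node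 (Tab.node At7 Tab.nil) Tab.nil))))

theorem Ac18 : Tab.check Ae18 At18 = true := by decide +kernel

end Vale.Agent.P062
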