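import Vale.Agent.P062.AD0
import Vale.Agent.P062.AD1
import Vale.Agent.P062.AD2
import Vale.Agent.P062.AD3
import Vale.Agent.P062.AD4
import Vale.Agent.P062.AD5
import Vale.Agent.P062.AD6
import Vale.Agent.P062.AD7
import Vale.Agent.P062.AD8
import Vale.Agent.P062.AD9
import Vale.Agent.P062.AD10
import Vale.Agent.P062.AD11
import Vale.Agent.P062.AD12
import Vale.Agent.P062.AD13
import Vale.Agent.P062.AD14
import Vale.Agent.P062.AD15
import Vale.Agent.P062.AD16
import Vale.Agent.P062.AD17
import Vale.Agent.P062.AD18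
import Vale.Agent.P062.AD19
import Vale.Agent.P062.AD20
import Vale.Agent.P062.AD21
import Vale.Agent.P062.AD22
import Vale.Agent.P062.AD23
import Vale.Agent.P062.AD24

namespace Vale.Agent.P062

noncomputable def Ae24 : Tab := (Tab.node (Tab.node (Tab.node (Tab.node (Tab.node At0 At16) (Tab.node At8 Tab.nil)) (Tab.node (Tab.node At4 At20) (Tab.node At12 Tab.nil))) (Tab.node (Tab.node (Tab.node At2 At18) (Tab.node At10 Tab.nil)) (Tab.node (Tab.node At6 At22) (Tab.node At14 Tab.nil)))) (Tab.node (Tab.node (Tab.node (Tab.node At1 At17) (Tab.node At9 Tab.nil)) (Tab.node (Tab.node At5 At21) (Tab.node At13 Tab.nil))) (Tab.node (Tab.node (Tab.node At3 At19) (Tab.node At11 Tab.nil)) (Tab.node (Tab.node At7 At23) (Tab.node At15 Tab.nil)))))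

theorem Ac24 : Tab.check Ae24 At24 = true := by decide +kernel

end Vale.Agent.P062
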