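import Vale.Agent.P062.AD5

namespace Vale.Agent.P062

noncomputable def Ae5 : Tab := Tab.nil

theorem Ac5 : Tab.check Ae5 At5 = true := by decide +kernel

end Vale.Agent.P062
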