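import Vale.Agent.P062.Sym

namespace Vale.Agent.P062

theorem poison_bit : poison.testBit 626 = true := by decide +kernel

theorem allBits_bit (j : ℕ) (h : j ≤ 625) : allBits.testBit j = true := by
  have : allBits = 2 ^ 626 - 1 := by decide +kernel
  rw [this, Nat.testBit_two_pow_sub_one]
  simp; omega

set_option exponentiation.threshold 1000 in
theorem not_bit_of_le {s : ℕ} (h : s ≤ allBits) : s.testBit 626 = false := by
  apply Nat.testBit_lt_two_pow
  have : allBits < 2 ^ 626 := by decide +kernel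
  exact lt_of_le_of_lt h this

theorem cp {b : Bool} {x : ℕ}
    (h : (@Bool.rec (fun _ => ℕ) poison x b).testBit 626 = false) :
    b = true ∧ @Bool.rec (fun _ => ℕ) poison x b = x ∧ x.testBit 626 = false := by
  cases b
  · exact absurd (h.symm.trans poison_bit) (by simp)
  · exact ⟨rfl, rfl, h⟩

theorem c626 {b : Bool} {x : ℕ} (h : @Bool.rec (fun _ => ℕ) (nat_lit 626) x b ≠ 626) :
    b = true ∧ @Bool.rec (fun _ => ℕ) (nat_lit 626) x b = x ∧ x ≠ 626 := by
  cases b
  · exact absurd rfl h
  · exact ⟨rfl, rfl, h⟩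

theorem c25 {b : Bool} {x : ℕ} (h : @Bool.rec (fun _ => ℕ) (nat_lit 25) x b < 25) :
    b = true ∧ @Bool.rec (fun _ => ℕ) (nat_lit 25) x b = x := by
  cases b
  · exact absurd h (lt_irrefl 25)
  · exact ⟨rfl, rfl⟩

theorem trc_spec {f : Bool} {a u : ℕ} (h : trc f a u < 25) :
    ((trc f a u : ℕ) : ℤ) = ((a : ℤ) - 32) + (if f then -1 else 1) * (u : ℤ) := by
  cases f
  · obtain ⟨h1, e⟩ := c25 h
    have e' : trc false a u = a + u - 32 := e
    have : 32 ≤ a + u := Nat.le_of_ble_eq_true h1
    rw [e']
    simp only [Bool.false_eq_true, if_false]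
    omega
  · obtain ⟨h1, e⟩ := c25 h
    have e' : trc true a u = a - (32 + u) := e
    have : 32 + u ≤ a := Nat.le_of_ble_eq_true h1
    rw [e']
    simp only [if_true]
    omega

theorem tr2_spec {u v : ℕ} (h : tr2 u v ≠ 626) :
    u < 25 ∧ v < 25 ∧ idx ((u : ℤ), (v : ℤ)) = tr2 u v := by
  obtain ⟨hu, e1, h⟩ := c626 h
  obtain ⟨hv, e2, h⟩ := c626 h
  have e : tr2 u v = v * 25 + u := e1.trans e2
  have h1 : u ≤ 24 := Nat.le_of_ble_eq_true hu
  have h2 : v ≤ 24 := Nat.le_of_ble_eq_true hv
  refine ⟨by omega, by omega, ?_⟩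
  rw [e]
  unfold idx
  rw [if_pos (by simp only; omega)]
  simp only
  omega

theorem tr_spec {sw fx fy : Bool} {a b x y : ℕ} (h : tr sw fx fy a b x y ≠ 626) :
    idx (gmap sw fx fy ((a : ℤ) - 32, (b : ℤ) - 32) ((x : ℤ), (y : ℤ))) = tr sw fx fy a b x y := by
  cases sw
  · obtain ⟨hu, hv, he⟩ := tr2_spec (u := trc fx a x) (v := trc fy b y) h
    refine Eq.trans ?_ he
    rw [trc_spec hu, trc_spec hv]
    congr 1
    simp [gmap, act, mat]
  · obtain ⟨hu, hv, he⟩ := tr2_spec (u := trc fx a y) (v := trc fy b x) h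
    refine Eq.trans ?_ he
    rw [trc_spec hu, trc_spec hv]
    congr 1
    simp [gmap, act, mat]

theorem cols_spec (g : ℕ → ℕ → ℕ) (row y : ℕ) : ∀ n x, x < n → row.testBit x = true →
    (cols g row y n).testBit (g x y) = true := by
  intro n
  induction n with
  | zero => intro x hx; omega
  | succ n ih =>
    intro x hx hb
    have e : cols g row y (n + 1) = colStep g row y n (cols g row y n) := rfl
    rw [e]
    unfold colStep
    cases hc : Nat.beq (Nat.land (Nat.shiftRight row n) (nat_lit 1)) (nat_lit 0)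
    · show (Nat.lor _ _).testBit _ = true
      rw [testBit_lor, testBit_bit]
      rcases Nat.lt_succ_iff_lt_or_eq.1 hx with hx | rfl
      · rw [ih x hx hb, Bool.true_or]
      · simp
    · show (cols g row y n).testBit _ = true
      rcases Nat.lt_succ_iff_lt_or_eq.1 hx with hx | rfl
      · exact ih x hx hb
      · have h1 : (Nat.land (Nat.shiftRight row x) 1).testBit 0 = true := by
          rw [testBit_land]
          have : (Nat.shiftRight row x).testBit 0 = true := by
            show (row >>> x).testBit 0 = true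
            rw [Nat.testBit_shiftRight]
            exact hb
          rw [this]
          rfl
        have h2 : Nat.land (Nat.shiftRight row x) 1 = 0 := Nat.eq_of_beq_eq_true hc
        rw [h2] at h1
        exact absurd h1 (by simp)

theorem rows_spec (g : ℕ → ℕ → ℕ) (m : ℕ) : ∀ n y x, y < n → x < 25 →
    m.testBit (y * 25 + x) = true → (rows g m n).testBit (g x y) = true := by
  intro n
  induction n with
  | zero => intro y x hy; omega
  | succ n ih =>
    intro y x hy hx hb
    have e : rows g m (n + 1) = rowStep g n (rows g m n)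
      (Nat.land (Nat.shiftRight m (n * 25)) 33554431) := rfl
    rw [e]
    have hrow : ∀ y, m.testBit (y * 25 + x) = true →
        (Nat.land (Nat.shiftRight m (y * 25)) 33554431).testBit x = true := by
      intro y hb
      rw [testBit_land]
      have h1 : (Nat.shiftRight m (y * 25)).testBit x = true := by
        show (m >>> (y * 25)).testBit x = true
        rw [Nat.testBit_shiftRight]
        exact hb
      have h2 : Nat.testBit 33554431 x = true := by
        rw [show (33554431 : ℕ) = 2 ^ 25 - 1 by norm_num, Nat.testBit_two_pow_sub_one]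
        simpa using hx
      rw [h1, h2]
      rfl
    unfold rowStep
    cases hc : Nat.beq (Nat.land (Nat.shiftRight m (n * 25)) 33554431) (nat_lit 0)
    · show (Nat.lor _ _).testBit _ = true
      rw [testBit_lor]
      rcases Nat.lt_succ_iff_lt_or_eq.1 hy with hy | rfl
      · rw [ih y x hy hx hb, Bool.true_or]
      · have := cols_spec g _ y 25 x hx (hrow y hb)
        rw [Bool.or_eq_true]
        exact Or.inr this
    · show (rows g m n).testBit _ = true
      rcases Nat.lt_succ_iff_lt_or_eq.1 hy with hy | rfl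
      · exact ih y x hy hx hb
      · have h1 := hrow y hb
        have h2 : Nat.land (Nat.shiftRight m (y * 25)) 33554431 = 0 := Nat.eq_of_beq_eq_true hc
        rw [h2] at h1
        exact absurd h1 (by simp)

theorem mp_spec (g : ℕ → ℕ → ℕ) (m : ℕ) (h : (mp g m).testBit 626 = false) (i : ℕ)
    (hi : m.testBit i = true) :
    i < 625 ∧ (mp g m).testBit (g (i % 25) (i / 25)) = true := by
  obtain ⟨h1, e, -⟩ := cp h
  have e' : mp g m = rows g m 25 := e
  have h2 : m >>> 625 = 0 := Nat.eq_of_beq_eq_true h1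
  have h3 : i < 625 := by
    by_contra h4
    have h5 : (m >>> 625).testBit (i - 625) = true := by
      rw [Nat.testBit_shiftRight, show 625 + (i - 625) = i by omega]
      exact hi
    rw [h2] at h5
    exact absurd h5 (by simp)
  refine ⟨h3, ?_⟩
  rw [e']
  exact rows_spec g m 25 (i / 25) (i % 25) (by omega) (by omega)
    (by rw [show i / 25 * 25 + i % 25 = i by omega]; exact hi)

theorem card_mp {n c s : ℕ} (h : Card n c s) (sw fx fy : Bool) (a b : ℕ)
    (hc : (mp (tr sw fx fy a b) c).testBit 626 = false)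
    (hs : (mp (tr sw fx fy a b) s).testBit 626 = false) :
    Card n (mp (tr sw fx fy a b) c) (mp (tr sw fx fy a b) s) := by
  have key : ∀ m, (mp (tr sw fx fy a b) m).testBit 626 = false → ∀ y,
      m.testBit (idx y) = true → (mp (tr sw fx fy a b) m).testBit
        (idx (gmap sw fx fy ((a : ℤ) - 32, (b : ℤ) - 32) y)) = true := by
    intro m hm y hy
    obtain ⟨h0, h1⟩ := mp_spec _ _ hm _ hy
    have h2 : tr sw fx fy a b (idx y % 25) (idx y / 25) ≠ 626 := by
      intro h3
      rw [h3, hm] at h1
      exact absurd h1 (by simp)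
    have h4 := tr_spec h2
    have h5 : (((idx y % 25 : ℕ) : ℤ), ((idx y / 25 : ℕ) : ℤ)) = y := cell_idx h0
    rw [h5] at h4
    rw [h4]
    exact h1
  exact h.transport sw fx fy _ (key c hc) (key s hs)

def Tab.Valid : Tab → Prop
  | .nil => True
  | .leaf n c s _ => Card n c s
  | .node l r => l.Valid ∧ r.Valid

theorem Tab.get_spec (t : Tab) (k : ℕ → ℕ → ℕ → ℕ) (ht : t.Valid) :
    ∀ i, t.get k i = poison ∨ ∃ n c s, Card n c s ∧ t.get k i = k n c s := by
  induction t with
  | nil => intro i; exact Or.inl rfl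
  | leaf n c s code => intro i; exact Or.inr ⟨n, c, s, ht, rfl⟩
  | node l r ihl ihr =>
    intro i
    have e : (Tab.node l r).get k i = @Bool.rec (fun _ => ℕ) (r.get k (Nat.shiftRight i 1))
      (l.get k (Nat.shiftRight i 1)) (Nat.beq (Nat.land i 1) 0) := rfl
    rw [e]
    cases Nat.beq (Nat.land i 1) 0
    · exact ihr ht.2 _
    · exact ihl ht.1 _

theorem edge1_spec {m o p f : ℕ} (ho : o < 8) (h : (edge1 m o p f).testBit 626 = false) :
    Card 1 m (edge1 m o p f) := by
  unfold edge1 edge2 at h ⊢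
  obtain ⟨h1, e1, h⟩ := cp h
  obtain ⟨h2, e2, h⟩ := cp h
  obtain ⟨h3, e3, h⟩ := cp h
  obtain ⟨h4, e4, h⟩ := cp h
  rw [e1, e2, e3, e4]
  exact card_edge ho (Nat.lt_succ_of_le (Nat.le_of_ble_eq_true h1)) (Nat.le_of_ble_eq_true h2)
    (Nat.lt_succ_of_le (Nat.le_of_ble_eq_true h3)) (sub_of_land (Nat.eq_of_beq_eq_true h4))

theorem edgeS_spec (code m : ℕ) (h : (edgeS code m).testBit 626 = false) :
    Card 1 m (edgeS code m) :=
  edge1_spec (Nat.lt_succ_of_le (Nat.and_le_right (m := 7))) h

theorem useCard_spec {m d n c s : ℕ} (hc : Card n c s)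
    (h : (useCard m d n c s).testBit 626 = false) : Card d m (useCard m d n c s) := by
  unfold useCard at h ⊢
  obtain ⟨h1, e1, h⟩ := cp h
  obtain ⟨h2, e2, h⟩ := cp h
  rw [e1, e2]
  exact hc.weaken (Nat.le_of_ble_eq_true h1) (sub_of_land (Nat.eq_of_beq_eq_true h2))
    fun _ h => h

theorem useMap_spec {m d n c s : ℕ} (hc : Card n c s) (sw fx fy : Bool) (a b : ℕ)
    (h : (useMap (tr sw fx fy a b) m d n c s).testBit 626 = false) :
    Card d m (useMap (tr sw fx fy a b) m d n c s) := by
  unfold useMap useMap1 at h ⊢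
  obtain ⟨h2, e2, h⟩ := cp h
  rw [e2]
  have h3 := not_bit_of_le (Nat.le_of_ble_eq_true h2)
  exact useCard_spec (card_mp hc sw fx fy a b h3 (cp (cp h).2.2).2.2) h

theorem get_ok {env : Tab} (henv : env.Valid) {m d : ℕ} {k : ℕ → ℕ → ℕ → ℕ}
    (hk : ∀ n c s, Card n c s → (k n c s).testBit 626 = false → Card d m (k n c s)) (i : ℕ)
    (h : (env.get k i).testBit 626 = false) : Card d m (env.get k i) := by
  rcases env.get_spec k henv i with h1 | ⟨n, c, s, hc, h1⟩
  · rw [h1, poison_bit] at h
    exact absurd h (by simp)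
  · rw [h1] at h ⊢
    exact hk n c s hc h

theorem refS_spec {env : Tab} (henv : env.Valid) (code m d : ℕ)
    (h : (refS env code m d).testBit 626 = false) : Card d m (refS env code m d) := by
  unfold refS ref0 at h ⊢
  refine get_ok henv ?_ _ h
  cases Nat.beq (Nat.land (Nat.land code (nat_lit 1099511627775)) (nat_lit 4194304)) (nat_lit 0)
  · exact fun n c s hc h => useMap_spec hc _ _ _ _ _ h
  · exact fun n c s hc h => useCard_spec hc h

def FamOk (rec : ℕ → ℕ → ℕ → ℕ → ℕ → ℕ) : Prop :=
  ∀ code m d I U, (rec code m d I U).testBit 626 = false →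
    Sub U (rec code m d I U) ∧ ∀ M B y, Has m M → Avoid (rec code m d I U) B → y ∉ M →
      I.testBit (idx y) = true → Win d M (insert y B)

theorem subS_spec {rec : ℕ → ℕ → ℕ → ℕ → ℕ → ℕ} (hrec : FamOk rec) {x code m d : ℕ} (hd : 1 ≤ d)
    (h : (subS rec x code m d).testBit 626 = false) : Card d m (subS rec x code m d) := by
  unfold subS at h ⊢
  obtain ⟨h1, e1, h⟩ := cp h
  rw [e1]
  unfold sub1 at h ⊢
  rw [testBit_lor, Bool.or_eq_false_iff] at h
  obtain ⟨d', rfl⟩ : ∃ d', d = d' + 1 := ⟨d - 1, by omega⟩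
  exact card_step (Nat.lt_succ_of_le (Nat.le_of_ble_eq_true h1)) fun M B y hM hB hy =>
    (hrec _ _ _ _ _ h.1).2 M B y hM hB hy (allBits_bit _ (idx_le y))

theorem member_ok {rec : ℕ → ℕ → ℕ → ℕ → ℕ → ℕ} (hrec : FamOk rec) {s rest m d I U : ℕ}
    (hs : s.testBit 626 = false → Card d m s)
    (h : (nxt rec rest m d I U s).testBit 626 = false) :
    Sub U (nxt rec rest m d I U s) ∧
      ∀ M B y, Has m M → Avoid (nxt rec rest m d I U s) B → y ∉ M →
        I.testBit (idx y) = true → Win d M (insert y B) := by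
  unfold nxt at h ⊢
  obtain ⟨h1, h2⟩ := hrec _ _ _ _ _ h
  have h3 : Sub s (rec rest m d (Nat.land I s) (Nat.lor U s)) :=
    fun j hj => h1 j (by rw [testBit_lor, hj, Bool.or_true])
  refine ⟨fun j hj => h1 j (by rw [testBit_lor, hj, Bool.true_or]), fun M B y hM hB hy hI => ?_⟩
  cases hsy : s.testBit (idx y)
  · have h4 : s.testBit 626 = false := by
      cases h5 : s.testBit 626
      · rfl
      · rw [h3 _ h5] at h; exact absurd h (by simp)
    refine hs h4 M _ hM fun z hz hz' => ?_
    rcases Finset.mem_insert.1 hz' with rfl | hz'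
    · rw [hsy] at hz; exact absurd hz (by simp)
    · exact hB z (h3 _ hz) hz'
  · exact h2 M B y hM hB hy (by rw [testBit_land, hI, hsy]; rfl)

theorem famStep_ok {env : Tab} (henv : env.Valid) {rec : ℕ → ℕ → ℕ → ℕ → ℕ → ℕ}
    (hrec : FamOk rec) : FamOk (famStep env rec) := by
  intro code m d I U h
  unfold famStep at h ⊢
  cases h0 : Nat.beq code (nat_lit 0)
  · rw [h0] at h
    obtain ⟨hd, ed, h⟩ := cp h
    have hd' : 1 ≤ d := Nat.le_of_ble_eq_true hd
    dsimp only
    rw [ed]
    unfold st123 at h ⊢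
    cases h1 : Nat.beq (Nat.land code (nat_lit 2)) (nat_lit 0)
    · rw [h1] at h
      dsimp only at h ⊢
      unfold st23 at h ⊢
      cases h2 : Nat.beq (Nat.land code (nat_lit 1)) (nat_lit 0)
      · rw [h2] at h
        exact member_ok hrec (refS_spec henv code m d) h
      · rw [h2] at h
        exact member_ok hrec (subS_spec hrec hd') h
    · rw [h1] at h
      exact member_ok hrec (fun hs => (edgeS_spec code m hs).weaken hd' (fun _ h => h)
        fun _ h => h) h
  · rw [h0] at h
    obtain ⟨h1, e1, h⟩ := cp h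
    dsimp only
    rw [e1]
    exact ⟨fun _ h => h, fun M B y hM _ hy hI =>
      absurd (hM y (sub_of_land (Nat.eq_of_beq_eq_true h1) _ hI)) hy⟩

theorem fam_ok {env : Tab} (henv : env.Valid) (fuel : ℕ) : FamOk (fam env fuel) := by
  induction fuel with
  | zero => intro code m d I U h; exact absurd (h.symm.trans poison_bit) (by simp)
  | succ n ih => exact famStep_ok henv ih

theorem cb {b x : Bool} (h : @Bool.rec (fun _ => Bool) false x b = true) : b = true ∧ x = true := by
  cases b
  · exact absurd h (by simp)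
  · exact ⟨rfl, h⟩

theorem leafOk_spec {env : Tab} (henv : env.Valid) {n c s code : ℕ}
    (h : leafOk env n c s code = true) : Card n c s := by
  unfold leafOk at h
  obtain ⟨h1, h⟩ := cb h
  obtain ⟨h2, h⟩ := cb h
  unfold leaf1 at h
  have h4 := sub_of_land (Nat.eq_of_beq_eq_true h)
  have h5 := not_bit_of_le (Nat.le_of_ble_eq_true h2)
  refine (subS_spec (fam_ok henv _) (Nat.le_of_ble_eq_true h1) ?_).weaken le_rfl
    (fun _ h => h) h4
  cases h6 : Nat.testBit _ 626
  · rfl
  · rw [h4 _ h6] at h5; exact absurd h5 (by simp)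

theorem Tab.valid_of_check {env : Tab} (henv : env.Valid) :
    ∀ {t : Tab}, env.check t = true → t.Valid
  | .nil, _ => trivial
  | .leaf _ _ _ _, h => leafOk_spec henv h
  | .node l r, h => by
    have e : env.check (.node l r) =
      @Bool.rec (fun _ => Bool) false (env.check r) (env.check l) := rfl
    rw [e] at h
    exact ⟨Tab.valid_of_check henv (cb h).1, Tab.valid_of_check henv (cb h).2⟩

theorem win_of_card {n s : ℕ} (h : Card n 0 s) : Win n ∅ ∅ :=
  h ∅ ∅ (fun y hy => by simp at hy) (fun y _ => Finset.notMem_empty y)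

end Vale.Agent.P062
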