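import Vale.Agent.P062.Game
import Vale.Agent.P062.Comp

namespace Vale.Agent.P062

/-! A reflective checker for strategy certificates on a `25 × 25` window. -/

def idx (y : Cell) : ℕ :=
  if 0 ≤ y.1 ∧ y.1 < 25 ∧ 0 ≤ y.2 ∧ y.2 < 25 then (y.2 * 25 + y.1).toNat else 625

def cell (i : ℕ) : Cell := (((i % 25 : ℕ) : ℤ), ((i / 25 : ℕ) : ℤ))

theorem idx_cell {i : ℕ} (h : i < 625) : idx (cell i) = i := by
  unfold idx cell
  rw [if_pos (by simp only; omega)]
  simp only
  omega

theorem cell_idx {y : Cell} (h : idx y < 625) : cell (idx y) = y := by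
  unfold idx at h ⊢
  split_ifs at h ⊢ with hy
  · obtain ⟨a, b⟩ := y
    simp only at hy h
    unfold cell
    ext <;> simp only <;> omega
  · omega

theorem idx_le (y : Cell) : idx y ≤ 625 := by
  unfold idx
  split_ifs with hy
  · omega
  · exact le_rfl

def Has (m : ℕ) (M : Finset Cell) : Prop := ∀ y, m.testBit (idx y) = true → y ∈ M

def Avoid (s : ℕ) (B : Finset Cell) : Prop := ∀ y, s.testBit (idx y) = true → y ∉ B

def Card (n c s : ℕ) : Prop := ∀ M B, Has c M → Avoid s B → Win n M B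

def Sub (a b : ℕ) : Prop := ∀ j, a.testBit j = true → b.testBit j = true

theorem sub_of_land {a b : ℕ} (h : Nat.land a b = a) : Sub a b := by
  intro j hj
  have h2 : (a &&& b).testBit j = true := by
    have : a &&& b = a := h
    rw [this]; exact hj
  rw [Nat.testBit_and, Bool.and_eq_true] at h2
  exact h2.2

theorem Card.weaken {n n' c c' s s' : ℕ} (h : Card n c s) (hn : n ≤ n') (hc : Sub c c')
    (hs : Sub s s') : Card n' c' s' :=
  fun M B hM hB => (h M B (fun y hy => hM y (hc _ hy)) (fun y hy => hB y (hs _ hy))).mono hn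

theorem testBit_bit (x j : ℕ) : (bit x).testBit j = decide (x = j) := by
  have : bit x = 2 ^ x := by
    show 1 <<< x = 2 ^ x
    rw [Nat.one_shiftLeft]
  rw [this, Nat.testBit_two_pow]

theorem testBit_lor (a b j : ℕ) : (Nat.lor a b).testBit j = (a.testBit j || b.testBit j) :=
  Nat.testBit_or a b j

theorem testBit_land (a b j : ℕ) : (Nat.land a b).testBit j = (a.testBit j && b.testBit j) :=
  Nat.testBit_and a b j

theorem has_insert {m x : ℕ} {M : Finset Cell} (hx : x < 625) (h : Has m M) :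
    Has (Nat.lor m (bit x)) (insert (cell x) M) := by
  intro y hy
  rw [testBit_lor, testBit_bit, Bool.or_eq_true, decide_eq_true_iff] at hy
  rcases hy with hy | hy
  · exact Finset.mem_insert_of_mem (h y hy)
  · have : cell (idx y) = y := cell_idx (hy ▸ hx)
    rw [hy, this]
    exact Finset.mem_insert_self _ _

theorem Has.mono {m : ℕ} {M M' : Finset Cell} (h : Has m M) (hM : M ⊆ M') : Has m M' :=
  fun y hy => hM (h y hy)

/-- The composition rule. -/
theorem card_step {d m r x : ℕ} (hx : x < 625)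
    (h : ∀ M B y, Has (Nat.lor m (bit x)) M → Avoid r B → y ∉ M → Win d M (insert y B)) :
    Card (d + 1) m (Nat.lor r (bit x)) := by
  intro M B hM hB
  have hr : Avoid r B := fun y hy => hB y (by rw [testBit_lor, hy, Bool.true_or])
  by_cases hxM : cell x ∈ M
  · obtain ⟨z, hz, hz'⟩ := exists_fresh M B
    refine ⟨z, hz, hz', Or.inr fun y hy _ => h _ B y ?_ hr hy⟩
    refine (has_insert hx hM).mono ?_
    rw [Finset.insert_eq_of_mem hxM]
    exact Finset.subset_insert _ _
  · refine ⟨cell x, hxM, hB _ ?_, Or.inr fun y hy _ => h _ B y (has_insert hx hM) hr hy⟩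
    rw [idx_cell hx, testBit_lor, testBit_bit]
    simp

theorem shape_spec (o : ℕ) (ho : o < 8) : ∃ R ∈ signedPerms, ∃ t : Cell, ∀ q ∈ snaky,
    ∃ dx dy : ℕ, dx < 5 ∧ dy < 5 ∧ t + act R q = ((dx : ℤ), (dy : ℤ)) ∧
      (shape o).testBit (dy * 25 + dx) = true := by
  have key : ∀ (R : Matrix (Fin 2) (Fin 2) ℤ) (t : Cell) (o : ℕ),
      (∀ q ∈ [((0 : ℤ), (0 : ℤ)), (1, 0), (2, 0), (3, 0), (3, 1), (4, 1)],
        (t + act R q).1.toNat < 5 ∧ (t + act R q).2.toNat < 5 ∧ 0 ≤ (t + act R q).1 ∧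
          0 ≤ (t + act R q).2 ∧
          (shape o).testBit ((t + act R q).2.toNat * 25 + (t + act R q).1.toNat) = true) →
      ∀ q ∈ snaky, ∃ dx dy : ℕ, dx < 5 ∧ dy < 5 ∧ t + act R q = ((dx : ℤ), (dy : ℤ)) ∧
        (shape o).testBit (dy * 25 + dx) = true := by
    intro R t o h q hq
    have hq' : q ∈ [((0 : ℤ), (0 : ℤ)), (1, 0), (2, 0), (3, 0), (3, 1), (4, 1)] := by
      simpa [snaky] using hq
    obtain ⟨h1, h2, h3, h4, h5⟩ := h q hq'
    refine ⟨_, _, h1, h2, ?_, h5⟩
    ext
    · simp only; omega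
    · simp only; omega
  interval_cases o
  · exact ⟨!![1, 0; 0, 1], by simp [signedPerms], (0, 0), key _ _ _ (by decide +kernel)⟩
  · exact ⟨!![-1, 0; 0, 1], by simp [signedPerms], (4, 0), key _ _ _ (by decide +kernel)⟩
  · exact ⟨!![1, 0; 0, -1], by simp [signedPerms], (0, 1), key _ _ _ (by decide +kernel)⟩
  · exact ⟨!![-1, 0; 0, -1], by simp [signedPerms], (4, 1), key _ _ _ (by decide +kernel)⟩
  · exact ⟨!![0, 1; 1, 0], by simp [signedPerms], (0, 0), key _ _ _ (by decide +kernel)⟩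
  · exact ⟨!![0, -1; 1, 0], by simp [signedPerms], (1, 0), key _ _ _ (by decide +kernel)⟩
  · exact ⟨!![0, 1; -1, 0], by simp [signedPerms], (0, 4), key _ _ _ (by decide +kernel)⟩
  · exact ⟨!![0, -1; -1, 0], by simp [signedPerms], (1, 4), key _ _ _ (by decide +kernel)⟩

theorem owns_of_edge {o p : ℕ} (ho : o < 8) (hp : p < 525) (hp' : p % 25 ≤ 20)
    {M : Finset Cell} (h : Has (Nat.shiftLeft (shape o) p) M) : Owns M := by
  obtain ⟨R, hR, t, ht⟩ := shape_spec o ho
  refine ⟨(fun q => (cell p + t) + act R q) '' snaky, ⟨cell p + t, R, hR, rfl⟩, ?_⟩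
  rintro _ ⟨q, hq, rfl⟩
  obtain ⟨dx, dy, hdx, hdy, he, hb⟩ := ht q hq
  apply h
  have e1 : cell p + t + act R q = cell (p + (dy * 25 + dx)) := by
    rw [add_assoc, he]
    unfold cell
    ext
    · simp only [Prod.fst_add]; omega
    · simp only [Prod.snd_add]; omega
  show Nat.testBit (shape o <<< p) (idx (cell p + t + act R q)) = true
  rw [e1, idx_cell (by omega), Nat.testBit_shiftLeft]
  simp [hb]

theorem card_edge {o p f m : ℕ} (ho : o < 8) (hp : p < 525) (hp' : p % 25 ≤ 20) (hf : f < 625)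
    (h : Sub (Nat.shiftLeft (shape o) p) (Nat.lor m (bit f))) :
    Card 1 m (Nat.lor (Nat.shiftLeft (shape o) p) (bit f)) := by
  intro M B hM hB
  have h1 : Owns (insert (cell f) M) :=
    owns_of_edge ho hp hp' fun y hy => has_insert hf hM y (h _ hy)
  by_cases hxM : cell f ∈ M
  · rw [Finset.insert_eq_of_mem hxM] at h1
    exact h1.win _ _
  · refine ⟨cell f, hxM, hB _ ?_, Or.inl h1⟩
    rw [idx_cell hf, testBit_lor, testBit_bit]
    simp

end Vale.Agent.P062
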