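import Mathlib

namespace Vale.Agent.P062

/-- A cell of the square grid, indexed by its lower-left corner. -/
abbrev Cell : Type := ℤ × ℤ

/-- The Snaky hexomino. -/
def snaky : Set Cell := {(0, 0), (1, 0), (2, 0), (3, 0), (3, 1), (4, 1)}

/-- The eight `2 × 2` signed permutation matrices. -/
def signedPerms : Set (Matrix (Fin 2) (Fin 2) ℤ) :=
  {!![1, 0; 0, 1], !![-1, 0; 0, 1], !![1, 0; 0, -1], !![-1, 0; 0, -1],
   !![0, 1; 1, 0], !![0, -1; 1, 0], !![0, 1; -1, 0], !![0, -1; -1, 0]}

/-- The action of a `2 × 2` integer matrix on a cell (matrix times column vector). -/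
def act (R : Matrix (Fin 2) (Fin 2) ℤ) (p : Cell) : Cell :=
  (R 0 0 * p.1 + R 0 1 * p.2, R 1 0 * p.1 + R 1 1 * p.2)

/-- An allowed copy of Snaky: `t + R(S)`. -/
def IsAllowedCopy (C : Set Cell) : Prop :=
  ∃ t : Cell, ∃ R ∈ signedPerms, C = (fun p => t + act R p) '' snaky

/-- The cell claimed by Maker on turn `n` (turns are numbered from `0`, Maker moves first), when
Maker follows the strategy `σ` and Breaker's claims are `b 0, b 1, …`: the strategy sees the list
of Breaker's earlier claims `b 0, …, b (n-1)`. -/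
def makerMove (σ : List Cell → Cell) (b : ℕ → Cell) (n : ℕ) : Cell :=
  σ ((List.range n).map b)

/-- Maker's claim on turn `n` is legal: the cell is unclaimed by both players. -/
def MakerLegal (σ : List Cell → Cell) (b : ℕ → Cell) (n : ℕ) : Prop :=
  ∀ k < n, makerMove σ b n ≠ makerMove σ b k ∧ makerMove σ b n ≠ b k

/-- Breaker's claim `b n`, made right after Maker's turn `n`, is legal: the cell is unclaimed by
both players. -/
def BreakerLegal (σ : List Cell → Cell) (b : ℕ → Cell) (n : ℕ) : Prop :=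
  (∀ k ≤ n, b n ≠ makerMove σ b k) ∧ ∀ k < n, b n ≠ b k

/-- After its first `n` claims Maker owns every cell of some allowed copy of Snaky. -/
def MakerOwnsCopy (σ : List Cell → Cell) (b : ℕ → Cell) (n : ℕ) : Prop :=
  ∃ C : Set Cell, IsAllowedCopy C ∧ ∀ p ∈ C, ∃ k < n, makerMove σ b k = p

end Vale.Agent.P062
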