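import Vale.Agent.P062.ED0
import Vale.Agent.P062.ED1
import Vale.Agent.P062.ED2
import Vale.Agent.P062.ED3
import Vale.Agent.P062.ED4
import Vale.Agent.P062.ED5
import Vale.Agent.P062.ED6
import Vale.Agent.P062.ED7
import Vale.Agent.P062.ED8
import Vale.Agent.P062.ED9
import Vale.Agent.P062.ED10
import Vale.Agent.P062.ED11
import Vale.Agent.P062.ED12

namespace Vale.Agent.P062

noncomputable def Ee12 : Tab := (Tab.node (Tab.node (Tab.node (Tab.node (Tab.node Et0 Tab.nil) (Tab.node Et8 Tab.nil)) (Tab.node (Tab.node Et4 Tab.nil) Tab.nil)) (Tab.node (Tab.node (Tab.node Et2 Tab.nil) (Tab.node Et10 Tab.nil)) (Tab.node (Tab.node Et6 Tab.nil) Tab.nil))) (Tab.node (Tab.node (Tab.node (Tab.node Et1 Tab.nil) (Tab.node Et9 Tab.nil)) (Tab.node (Tab.node Et5 Tab.nil) Tab.nil)) (Tab.node (Tab.node (Tab.node Et3 Tab.nil) (Tab.node Et11 Tab.nil)) (Tab.node (Tab.node Et7 Tab.nil) Tab.nil))))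

theorem Ec12 : Tab.check Ee12 Et12 = true := by decide +kernel

end Vale.Agent.P062
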