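import Vale.Agent.P062.ED0
import Vale.Agent.P062.ED1
import Vale.Agent.P062.ED2
import Vale.Agent.P062.ED3
import Vale.Agent.P062.ED5

namespace Vale.Agent.P062

noncomputable def Ee5 : Tab := (Tab.node (Tab.node (Tab.node (Tab.node (Tab.node Et0 Tab.nil) Tab.nil) Tab.nil) (Tab.node (Tab.node (Tab.node Et2 Tab.nil) Tab.nil) Tab.nil)) (Tab.node (Tab.node (Tab.node (Tab.node Et1 Tab.nil) Tab.nil) Tab.nil) (Tab.node (Tab.node (Tab.node Et3 Tab.nil) Tab.nil) Tab.nil)))

theorem Ec5 : Tab.check Ee5 Et5 = true := by decide +kernel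

end Vale.Agent.P062
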