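import Vale.Agent.P062.ED0
import Vale.Agent.P062.ED1
import Vale.Agent.P062.ED2
import Vale.Agent.P062.ED3
import Vale.Agent.P062.ED7

namespace Vale.Agent.P062

noncomputable def Ee7 : Tab := (Tab.node (Tab.node (Tab.node (Tab.node (Tab.node Et0 Tab.nil) Tab.nil) Tab.nil) (Tab.node (Tab.node (Tab.node Et2 Tab.nil) Tab.nil) Tab.nil)) (Tab.node (Tab.node (Tab.node (Tab.node Et1 Tab.nil) Tab.nil) Tab.nil) (Tab.node (Tab.node (Tab.node Et3 Tab.nil) Tab.nil) Tab.nil)))

theorem Ec7 : Tab.check Ee7 Et7 = true := by decide +kernel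

end Vale.Agent.P062
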