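import Vale.Agent.P062.ED0
import Vale.Agent.P062.ED1
import Vale.Agent.P062.ED2
import Vale.Agent.P062.ED3
import Vale.Agent.P062.ED4
import Vale.Agent.P062.ED5
import Vale.Agent.P062.ED6
import Vale.Agent.P062.ED7
import Vale.Agent.P062.ED8

namespace Vale.Agent.P062

noncomputable def Ee8 : Tab := (Tab.node (Tab.node (Tab.node (Tab.node (Tab.node Et0 Tab.nil) Tab.nil) (Tab.node (Tab.node Et4 Tab.nil) Tab.nil)) (Tab.node (Tab.node (Tab.node Et2 Tab.nil) Tab.nil) (Tab.node (Tab.node Et6 Tab.nil) Tab.nil))) (Tab.node (Tab.node (Tab.node (Tab.node Et1 Tab.nil) Tab.nil) (Tab.node (Tab.node Et5 Tab.nil) Tab.nil)) (Tab.node (Tab.node (Tab.node Et3 Tab.nil) Tab.nil) (Tab.node (Tab.node Et7 Tab.nil) Tab.nil))))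

theorem Ec8 : Tab.check Ee8 Et8 = true := by decide +kernel

end Vale.Agent.P062
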