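import Vale.Agent.P062.Defs

namespace Vale.Agent.P062

open Classical

def Owns (M : Finset Cell) : Prop := ∃ C : Set Cell, IsAllowedCopy C ∧ ∀ p ∈ C, p ∈ M

/-- Maker, to move in position `(M, B)`, wins with at most `n` further moves. -/
def Win : ℕ → Finset Cell → Finset Cell → Prop
  | 0, M, _ => Owns M
  | n + 1, M, B => ∃ x, x ∉ M ∧ x ∉ B ∧
      (Owns (insert x M) ∨ ∀ y, y ∉ insert x M → y ∉ B → Win n (insert x M) (insert y B))

theorem Owns.mono {M M' : Finset Cell} (h : Owns M) (hM : M ⊆ M') : Owns M' := by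
  obtain ⟨C, hC, hp⟩ := h
  exact ⟨C, hC, fun p hpC => hM (hp p hpC)⟩

theorem exists_fresh (M B : Finset Cell) : ∃ x, x ∉ M ∧ x ∉ B := by
  obtain ⟨x, hx⟩ := Infinite.exists_notMem_finset (M ∪ B)
  exact ⟨x, fun h => hx (Finset.mem_union_left _ h), fun h => hx (Finset.mem_union_right _ h)⟩

theorem Owns.win {M : Finset Cell} (h : Owns M) (n : ℕ) (B : Finset Cell) : Win n M B := by
  cases n with
  | zero => exact h
  | succ n =>
    obtain ⟨x, hx, hx'⟩ := exists_fresh M B
    exact ⟨x, hx, hx', Or.inl (h.mono (Finset.subset_insert _ _))⟩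

theorem Win.succ : ∀ {n : ℕ} {M B : Finset Cell}, Win n M B → Win (n + 1) M B
  | 0, _, B, h => Owns.win h 1 B
  | _ + 1, _, _, ⟨x, hx, hx', h⟩ =>
    ⟨x, hx, hx', h.imp id fun h y hy hy' => Win.succ (h y hy hy')⟩

theorem Win.mono {n m : ℕ} {M B : Finset Cell} (h : Win n M B) (hnm : n ≤ m) : Win m M B := by
  induction hnm with
  | refl => exact h
  | step _ ih => exact ih.succ

/-- One move of the extracted strategy. -/
noncomputable def pick (n : ℕ) (M B : Finset Cell) : Cell :=
  if h : ∃ x, x ∉ M ∧ x ∉ B ∧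
      (Owns (insert x M) ∨ ∀ y, y ∉ insert x M → y ∉ B → Win n (insert x M) (insert y B))
  then h.choose else (exists_fresh M B).choose

theorem pick_fresh (n : ℕ) (M B : Finset Cell) : pick n M B ∉ M ∧ pick n M B ∉ B := by
  unfold pick
  split_ifs with h
  · exact ⟨h.choose_spec.1, h.choose_spec.2.1⟩
  · exact (exists_fresh M B).choose_spec

theorem pick_win {n : ℕ} {M B : Finset Cell} (h : Win (n + 1) M B) :
    Owns (insert (pick n M B) M) ∨ ∀ y, y ∉ insert (pick n M B) M → y ∉ B →
      Win n (insert (pick n M B) M) (insert y B) := by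
  have h' : ∃ x, x ∉ M ∧ x ∉ B ∧
      (Owns (insert x M) ∨ ∀ y, y ∉ insert x M → y ∉ B → Win n (insert x M) (insert y B)) := h
  unfold pick
  rw [dif_pos h']
  exact h'.choose_spec.2.2

/-- Position reached after a reversed list of Breaker moves. -/
noncomputable def pos (N : ℕ) : List Cell → Finset Cell × Finset Cell
  | [] => (∅, ∅)
  | y :: l => (insert (pick (N - 1 - l.length) (pos N l).1 (pos N l).2) (pos N l).1,
      insert y (pos N l).2)

noncomputable def strat (N : ℕ) (l : List Cell) : Cell :=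
  pick (N - 1 - l.length) (pos N l.reverse).1 (pos N l.reverse).2

noncomputable def posAt (N : ℕ) (b : ℕ → Cell) (n : ℕ) : Finset Cell × Finset Cell :=
  pos N ((List.range n).map b).reverse

theorem makerMove_strat (N : ℕ) (b : ℕ → Cell) (n : ℕ) :
    makerMove (strat N) b n = pick (N - 1 - n) (posAt N b n).1 (posAt N b n).2 := by
  simp [makerMove, strat, posAt]

theorem posAt_succ (N : ℕ) (b : ℕ → Cell) (n : ℕ) :
    posAt N b (n + 1) = (insert (makerMove (strat N) b n) (posAt N b n).1,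
      insert (b n) (posAt N b n).2) := by
  rw [makerMove_strat]
  simp [posAt, List.range_succ, pos]

theorem mem_posAt_fst (N : ℕ) (b : ℕ → Cell) (n : ℕ) (p : Cell) :
    p ∈ (posAt N b n).1 ↔ ∃ k < n, makerMove (strat N) b k = p := by
  induction n with
  | zero => simp [posAt, pos]
  | succ n ih =>
    rw [posAt_succ]
    simp only [Finset.mem_insert, ih]
    constructor
    · rintro (h | ⟨k, hk, h⟩)
      · exact ⟨n, Nat.lt_succ_self n, h.symm⟩
      · exact ⟨k, Nat.lt_succ_of_lt hk, h⟩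
    · rintro ⟨k, hk, h⟩
      rcases Nat.lt_succ_iff_lt_or_eq.1 hk with hk | rfl
      · exact Or.inr ⟨k, hk, h⟩
      · exact Or.inl h.symm

theorem mem_posAt_snd (N : ℕ) (b : ℕ → Cell) (n : ℕ) (p : Cell) :
    p ∈ (posAt N b n).2 ↔ ∃ k < n, b k = p := by
  induction n with
  | zero => simp [posAt, pos]
  | succ n ih =>
    rw [posAt_succ]
    simp only [Finset.mem_insert, ih]
    constructor
    · rintro (h | ⟨k, hk, h⟩)
      · exact ⟨n, Nat.lt_succ_self n, h.symm⟩
      · exact ⟨k, Nat.lt_succ_of_lt hk, h⟩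
    · rintro ⟨k, hk, h⟩
      rcases Nat.lt_succ_iff_lt_or_eq.1 hk with hk | rfl
      · exact Or.inr ⟨k, hk, h⟩
      · exact Or.inl h.symm

theorem strat_legal (N : ℕ) (b : ℕ → Cell) (n : ℕ) : MakerLegal (strat N) b n := by
  intro k hk
  have h := pick_fresh (N - 1 - n) (posAt N b n).1 (posAt N b n).2
  rw [← makerMove_strat] at h
  constructor
  · intro he
    exact h.1 ((mem_posAt_fst N b n _).2 ⟨k, hk, he.symm⟩)
  · intro he
    exact h.2 ((mem_posAt_snd N b n _).2 ⟨k, hk, he.symm⟩)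

theorem strat_inv (N : ℕ) (hW : Win (N + 1) ∅ ∅) (b : ℕ → Cell) (n : ℕ) (hn : n ≤ N)
    (hb : ∀ k < n, BreakerLegal (strat (N + 1)) b k) :
    Win (N + 1 - n) (posAt (N + 1) b n).1 (posAt (N + 1) b n).2 := by
  induction n with
  | zero => simpa [posAt, pos] using hW
  | succ n ih =>
    have ih' := ih (Nat.le_of_succ_le hn) fun k hk => hb k (Nat.lt_succ_of_lt hk)
    have e : N + 1 - n = (N + 1 - 1 - n) + 1 := by omega
    rw [e] at ih'
    have h := pick_win ih'
    rw [← makerMove_strat] at h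
    have e2 : N + 1 - (n + 1) = N + 1 - 1 - n := by omega
    rw [posAt_succ, e2]
    rcases h with h | h
    · exact h.win _ _
    · have hl := hb n (Nat.lt_succ_self n)
      apply h
      · rw [Finset.mem_insert, mem_posAt_fst]
        rintro (h1 | ⟨k, hk, h1⟩)
        · exact hl.1 n le_rfl h1
        · exact hl.1 k hk.le h1.symm
      · rw [mem_posAt_snd]
        rintro ⟨k, hk, h1⟩
        exact hl.2 k hk h1.symm

theorem strategy_of_win (N : ℕ) (hW : Win (N + 1) ∅ ∅) :
    ∃ σ : List Cell → Cell,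
      (∀ (b : ℕ → Cell) (n : ℕ), MakerLegal σ b n) ∧
      ∀ b : ℕ → Cell, (∀ k < N, BreakerLegal σ b k) → MakerOwnsCopy σ b (N + 1) := by
  refine ⟨strat (N + 1), strat_legal (N + 1), fun b hb => ?_⟩
  have h := strat_inv N hW b N le_rfl hb
  have e : N + 1 - N = (N + 1 - 1 - N) + 1 := by omega
  rw [e] at h
  have h2 := pick_win h
  rw [← makerMove_strat] at h2
  have hown : Owns (insert (makerMove (strat (N + 1)) b N) (posAt (N + 1) b N).1) := by
    rcases h2 with h2 | h2
    · exact h2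
    · obtain ⟨y, hy, hy'⟩ := exists_fresh
        (insert (makerMove (strat (N + 1)) b N) (posAt (N + 1) b N).1) (posAt (N + 1) b N).2
      have h3 := h2 y hy hy'
      have e3 : N + 1 - 1 - N = 0 := by omega
      rw [e3] at h3
      exact h3
  obtain ⟨C, hC, hp⟩ := hown
  refine ⟨C, hC, fun p hpC => ?_⟩
  have := hp p hpC
  rw [Finset.mem_insert, mem_posAt_fst] at this
  rcases this with h1 | ⟨k, hk, h1⟩
  · exact ⟨N, Nat.lt_succ_self N, h1.symm⟩
  · exact ⟨k, Nat.lt_succ_of_lt hk, h1⟩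

end Vale.Agent.P062
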