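import Vale.Agent.P062.Check

namespace Vale.Agent.P062

/-! Symmetries: invariance of cards under lattice isometries. -/

def mat (sw fx fy : Bool) : Matrix (Fin 2) (Fin 2) ℤ :=
  if sw then !![0, if fx then -1 else 1; if fy then -1 else 1, 0]
  else !![if fx then -1 else 1, 0; 0, if fy then -1 else 1]

theorem act_mul (R R' : Matrix (Fin 2) (Fin 2) ℤ) (p : Cell) :
    act R (act R' p) = act (R * R') p := by
  unfold act
  ext <;> simp [Matrix.mul_apply, Fin.sum_univ_two] <;> ring

theorem act_add (R : Matrix (Fin 2) (Fin 2) ℤ) (p q : Cell) :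
    act R (p + q) = act R p + act R q := by
  unfold act
  ext <;> simp <;> ring

theorem mat_mul_mem (sw fx fy : Bool) {R : Matrix (Fin 2) (Fin 2) ℤ} (hR : R ∈ signedPerms) :
    mat sw fx fy * R ∈ signedPerms := by
  simp only [signedPerms, Set.mem_insert_iff, Set.mem_singleton_iff] at hR ⊢
  rcases hR with rfl | rfl | rfl | rfl | rfl | rfl | rfl | rfl <;>
    cases sw <;> cases fx <;> cases fy <;> simp [mat]

def gmap (sw fx fy : Bool) (t : Cell) (p : Cell) : Cell := t + act (mat sw fx fy) p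

theorem gmap_inj (sw fx fy : Bool) (t : Cell) : Function.Injective (gmap sw fx fy t) := by
  rintro ⟨a, b⟩ ⟨c, d⟩ h
  unfold gmap act mat at h
  cases sw <;> cases fx <;> cases fy <;> simp at h <;> simp [h.1, h.2]

theorem gmap_surj (sw fx fy : Bool) (t : Cell) : Function.Surjective (gmap sw fx fy t) := by
  rintro ⟨a, b⟩
  obtain ⟨u, v⟩ := t
  cases sw <;> cases fx <;> cases fy
  · exact ⟨(a - u, b - v), by simp [gmap, act, mat]⟩
  · exact ⟨(a - u, v - b), by simp [gmap, act, mat]⟩
  · exact ⟨(u - a, b - v), by simp [gmap, act, mat]⟩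
  · exact ⟨(u - a, v - b), by simp [gmap, act, mat]⟩
  · exact ⟨(b - v, a - u), by simp [gmap, act, mat]⟩
  · exact ⟨(v - b, a - u), by simp [gmap, act, mat]⟩
  · exact ⟨(b - v, u - a), by simp [gmap, act, mat]⟩
  · exact ⟨(v - b, u - a), by simp [gmap, act, mat]⟩

theorem Owns.image {M : Finset Cell} (h : Owns M) (sw fx fy : Bool) (t : Cell) :
    Owns (M.image (gmap sw fx fy t)) := by
  obtain ⟨C, ⟨u, R, hR, rfl⟩, hp⟩ := h
  refine ⟨_, ⟨gmap sw fx fy t u, mat sw fx fy * R, mat_mul_mem sw fx fy hR, rfl⟩, ?_⟩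
  rintro _ ⟨q, hq, rfl⟩
  refine Finset.mem_image.2 ⟨u + act R q, hp _ ⟨q, hq, rfl⟩, ?_⟩
  simp only [gmap, act_add, act_mul, add_assoc]

theorem Win.image (sw fx fy : Bool) (t : Cell) : ∀ {n : ℕ} {M B : Finset Cell}, Win n M B →
    Win n (M.image (gmap sw fx fy t)) (B.image (gmap sw fx fy t))
  | 0, _, _, h => Owns.image h sw fx fy t
  | n + 1, M, B, ⟨x, hx, hx', h⟩ => by
    have inj := gmap_inj sw fx fy t
    refine ⟨gmap sw fx fy t x, by simpa [inj.eq_iff] using hx, by simpa [inj.eq_iff] using hx', ?_⟩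
    rw [← Finset.image_insert]
    rcases h with h | h
    · exact Or.inl (h.image sw fx fy t)
    · refine Or.inr fun y hy hy' => ?_
      obtain ⟨z, rfl⟩ := gmap_surj sw fx fy t y
      rw [← Finset.image_insert]
      exact Win.image sw fx fy t (h z (fun hz => hy (Finset.mem_image_of_mem _ hz))
        (fun hz => hy' (Finset.mem_image_of_mem _ hz)))

theorem Card.transport {n c s c' s' : ℕ} (h : Card n c s) (sw fx fy : Bool) (t : Cell)
    (hc : ∀ y, c.testBit (idx y) = true → c'.testBit (idx (gmap sw fx fy t y)) = true)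
    (hs : ∀ y, s.testBit (idx y) = true → s'.testBit (idx (gmap sw fx fy t y)) = true) :
    Card n c' s' := by
  intro M B hM hB
  have inj := gmap_inj sw fx fy t
  have sur := gmap_surj sw fx fy t
  have e : ∀ X : Finset Cell, (X.preimage (gmap sw fx fy t) inj.injOn).image (gmap sw fx fy t)
      = X := by
    intro X
    ext z
    obtain ⟨y, rfl⟩ := sur z
    simp [inj.eq_iff]
  have := (h (M.preimage _ inj.injOn) (B.preimage _ inj.injOn)
    (fun y hy => Finset.mem_preimage.2 (hM _ (hc y hy)))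
    (fun y hy hy' => hB _ (hs y hy) (Finset.mem_preimage.1 hy'))).image sw fx fy t
  rwa [e, e] at this

end Vale.Agent.P062
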